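import Mathlib

open MeasureTheory ComplexConjugate Filter

namespace Vale.Agent.Lib.P130

variable {X : Type*} [MeasurableSpace X] {μ : Measure X}

lemma inner_toLp {u v : X → ℂ} (hu : MemLp u 2 μ) (hv : MemLp v 2 μ) :
    inner ℂ (hu.toLp u) (hv.toLp v) = ∫ x, v x * conj (u x) ∂μ := by
  rw [L2.inner_def]
  apply integral_congr_ae
  filter_upwards [hu.coeFn_toLp, hv.coeFn_toLp] with x h1 h2
  rw [h1, h2, RCLike.inner_apply]

lemma integrable_mul_conj {u v : X → ℂ} (hu : MemLp u 2 μ) (hv : MemLp v 2 μ) :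
    Integrable (fun x => u x * conj (v x)) μ := by
  have hv' : MemLp (star v) 2 μ := hv.star
  exact hu.integrable_mul hv'

lemma integral_mul_conj_symm (u v : X → ℂ) :
    ∫ x, u x * conj (v x) ∂μ = conj (∫ x, v x * conj (u x) ∂μ) := by
  rw [← integral_conj]
  congr 1
  funext x
  simp [mul_comm]

/-- if a total family is mapped by the Koopman operator into the orthogonal complement of `f0`,
then the whole range of the Koopman operator is orthogonal to `f0`. -/
lemma range_orthogonal {T : X → X} (hT : MeasurePreserving T μ μ) {f0 : X → ℂ}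
    (hf0 : MemLp f0 2 μ) (𝓑 : Set (X → ℂ)) (h𝓑 : ∀ b ∈ 𝓑, MemLp b 2 μ)
    (htotal : ∀ g : X → ℂ, MemLp g 2 μ → (∀ b ∈ 𝓑, ∫ x, g x * conj (b x) ∂μ = 0) → g =ᵐ[μ] 0)
    (horth : ∀ b ∈ 𝓑, ∫ x, b (T x) * conj (f0 x) ∂μ = 0) :
    ∀ k : X → ℂ, MemLp k 2 μ → ∫ x, k (T x) * conj (f0 x) ∂μ = 0 := by
  set U : Lp ℂ 2 μ →L[ℂ] Lp ℂ 2 μ :=
    (Lp.compMeasurePreservingₗᵢ ℂ T hT).toContinuousLinearMap with hU
  have hUapp : ∀ (k : X → ℂ) (hk : MemLp k 2 μ),
      U (hk.toLp k) = (hk.comp_measurePreserving hT).toLp (k ∘ T) := fun k hk => rfl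
  set z := ContinuousLinearMap.adjoint U (hf0.toLp f0) with hz
  have hz0 : z = 0 := by
    rw [Lp.eq_zero_iff_ae_eq_zero]
    apply htotal _ (Lp.memLp z)
    intro b hb
    have h1 : inner ℂ ((h𝓑 b hb).toLp b) z = inner ℂ (U ((h𝓑 b hb).toLp b)) (hf0.toLp f0) :=
      ContinuousLinearMap.adjoint_inner_right U _ _
    rw [hUapp, inner_toLp] at h1
    have h2 : inner ℂ ((h𝓑 b hb).toLp b) z = ∫ x, z x * conj (b x) ∂μ := by
      conv_lhs => rw [← Lp.toLp_coeFn z (Lp.memLp z)]
      rw [inner_toLp]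
    rw [← h2, h1, integral_mul_conj_symm]
    simp only [Function.comp]
    rw [horth b hb]
    simp
  intro k hk
  have h1 : inner ℂ (hk.toLp k) z = inner ℂ (U (hk.toLp k)) (hf0.toLp f0) :=
    ContinuousLinearMap.adjoint_inner_right U _ _
  rw [hz0, inner_zero_right, hUapp, inner_toLp] at h1
  simp only [Function.comp] at h1
  rw [integral_mul_conj_symm, ← h1]
  simp


/-- the orthogonal complement of the range of the Koopman operator of a measure preserving map of
a nonatomic countably separated space is not spanned by a single nonzero function -/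
lemma complement_not_line [NullSingletonClass μ] [MeasurableSpace.CountablySeparated X]
    {T : X → X} (hT : MeasurePreserving T μ μ) {f0 : X → ℂ} (hf0 : MemLp f0 2 μ)
    (Horth : ∀ k : X → ℂ, MemLp k 2 μ → ∫ x, k (T x) * conj (f0 x) ∂μ = 0)
    (Hline : ∀ w : X → ℂ, MemLp w 2 μ → (∀ k : X → ℂ, MemLp k 2 μ →
      ∫ x, k (T x) * conj (w x) ∂μ = 0) → ∃ c : ℂ, w =ᵐ[μ] fun x => c * f0 x) :
    f0 =ᵐ[μ] 0 := by
  rcases isEmpty_or_nonempty X with hX | hX
  · exact Filter.Eventually.of_forall (fun x => (hX.false x).elim)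
  set l : Filter X := ae μ ⊓ 𝓟 {x | f0 x ≠ 0} with hl
  have hsep : ∀ B : Set X, MeasurableSet B → (∀ᶠ x in l, T x ∈ B) ∨ (∀ᶠ x in l, T x ∉ B) := by
    intro B hB
    have hw : MemLp ((T ⁻¹' B).indicator f0) 2 μ := hf0.indicator (hT.measurable hB)
    obtain ⟨c, hc⟩ := Hline _ hw (by
      intro k hk
      have := Horth (B.indicator k) (hk.indicator hB)
      rw [← this]
      congr 1
      funext x
      by_cases hx : T x ∈ B
      · have hx' : x ∈ T ⁻¹' B := hx
        simp [hx, hx']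
      · have hx' : x ∉ T ⁻¹' B := hx
        simp [hx, hx'])
    by_cases hc1 : c = 1
    · left
      rw [hl, eventually_inf_principal]
      filter_upwards [hc] with x hx hfx
      by_contra hxB
      have hx' : x ∉ T ⁻¹' B := hxB
      rw [Set.indicator_of_notMem hx', hc1, one_mul] at hx
      exact hfx hx.symm
    · right
      rw [hl, eventually_inf_principal]
      filter_upwards [hc] with x hx hfx hxB
      have hx' : x ∈ T ⁻¹' B := hxB
      rw [Set.indicator_of_mem hx'] at hx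
      apply hc1
      have hfx' : f0 x ≠ 0 := hfx
      have : (1 - c) * f0 x = 0 := by linear_combination hx
      rcases mul_eq_zero.1 this with h | h
      · linear_combination -h
      · exact absurd h hfx'
  obtain ⟨a, ha⟩ := exists_eventuallyEq_const_of_forall_separating (l := l) (f := T)
    MeasurableSet hsep
  rw [Filter.EventuallyEq, hl, eventually_inf_principal] at ha
  have hnull : μ (T ⁻¹' {a}) = 0 := by
    rw [hT.measure_preimage (NullMeasurableSet.of_null (measure_singleton a))]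
    exact measure_singleton a
  have hne : ∀ᵐ x ∂μ, x ∉ T ⁻¹' {a} := measure_eq_zero_iff_ae_notMem.1 hnull
  filter_upwards [ha, hne] with x h1 h2
  by_contra hfx
  exact h2 (h1 hfx)


lemma ae_zero_of_integral_self {u : X → ℂ} (hu : MemLp u 2 μ)
    (h : ∫ x, u x * conj (u x) ∂μ = 0) : u =ᵐ[μ] 0 := by
  rw [← inner_toLp hu hu, inner_self_eq_zero, Lp.eq_zero_iff_ae_eq_zero] at h
  exact hu.coeFn_toLp.symm.trans h

/-- general form: a total family consisting of one vector `f0` orthogonal to the range of the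
Koopman operator together with vectors in that range cannot exist unless `f0 = 0`. -/
lemma no_shift_basis [NullSingletonClass μ] [MeasurableSpace.CountablySeparated X]
    {T : X → X} (hT : MeasurePreserving T μ μ) {f0 : X → ℂ} (hf0 : MemLp f0 2 μ)
    (𝓑 : Set (X → ℂ)) (h𝓑 : ∀ b ∈ 𝓑, MemLp b 2 μ)
    (htotal : ∀ g : X → ℂ, MemLp g 2 μ → (∀ b ∈ 𝓑, ∫ x, g x * conj (b x) ∂μ = 0) → g =ᵐ[μ] 0)
    (horth : ∀ b ∈ 𝓑, ∫ x, b (T x) * conj (f0 x) ∂μ = 0)
    (hrange : ∀ b ∈ 𝓑, b = f0 ∨ ((∃ b' : X → ℂ, MemLp b' 2 μ ∧ b = fun x => b' (T x)) ∧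
      ∫ x, f0 x * conj (b x) ∂μ = 0)) :
    f0 =ᵐ[μ] 0 := by
  by_contra hne
  have hN : ∫ x, f0 x * conj (f0 x) ∂μ ≠ 0 := fun h => hne (ae_zero_of_integral_self hf0 h)
  apply hne
  apply complement_not_line hT hf0 (range_orthogonal hT hf0 𝓑 h𝓑 htotal horth)
  intro w hw hwk
  set N := ∫ x, f0 x * conj (f0 x) ∂μ with hNdef
  set c := (∫ x, w x * conj (f0 x) ∂μ) / N with hc
  refine ⟨c, ?_⟩
  have hg : MemLp (fun x => w x - c * f0 x) 2 μ := hw.sub (hf0.const_mul c)
  have := htotal _ hg (by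
    intro b hb
    have hbm := h𝓑 b hb
    have e1 : ∫ x, (w x - c * f0 x) * conj (b x) ∂μ =
        ∫ x, w x * conj (b x) ∂μ - c * ∫ x, f0 x * conj (b x) ∂μ := by
      rw [← integral_const_mul, ← integral_sub (integrable_mul_conj hw hbm)
        ((integrable_mul_conj hf0 hbm).const_mul c)]
      congr 1
      funext x
      ring
    rw [e1]
    rcases hrange b hb with rfl | ⟨⟨b', hb', rfl⟩, h0⟩
    · rw [hc, ← hNdef, div_mul_cancel₀ _ hN, sub_self]
    · rw [h0, mul_zero, sub_zero, integral_mul_conj_symm, hwk b' hb']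
      simp)
  filter_upwards [this] with x hx
  simp only [Pi.zero_apply] at hx
  linear_combination hx

end Vale.Agent.Lib.P130
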